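import Vale.Agent.Lib.P045.D.Hdr
import Vale.Agent.Lib.P045.D.HitTbl

namespace Vale.Agent.Lib.P045.D

open Vale.Agent.Lib.P045

noncomputable def hitF (j s : Nat) : Nat := hitCheck (hitGet j) s

noncomputable def lemF (i s : Nat) : Nat := lemmaCheck hdrGet hitGet (nat_lit 8918) i s

end Vale.Agent.Lib.P045.D
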